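import Vale.Agent.P181.Curve

set_option linter.unusedSectionVars false
set_option linter.unusedSimpArgs false
set_option linter.deprecated false

namespace Vale.Agent.P181

open Finset
open scoped Pointwise

variable {S : Type*} [CommRing S] [Algebra ℂ S]

lemma stepA (W : Submodule ℂ S) {a r : ℕ} (ha : 0 < a)
    (P : MultilinearMap ℂ (fun _ : Fin (a + 1) => S) ℂ) (hP : Symm P)
    (h : ∀ g ∈ (W : Set S) ^ (r + a), P (fun _ => g) = 0) :
    ∀ v ∈ (W : Set S) ^ r, ∀ u ∈ W, ∀ f ∈ W ^ a,
      P.curryLeft (v * f) (fun _ => v * u ^ a) = 0 := by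
  intro v hv u hu
  let φ : S →ₗ[ℂ] ℂ :=
    (MultilinearMap.toLinearMap P (fun _ => v * u ^ a) 0).comp (LinearMap.mul ℂ S v)
  have hφ : ∀ f, φ f = P.curryLeft (v * f) (fun _ => v * u ^ a) := by
    intro f
    simp only [φ, LinearMap.comp_apply, LinearMap.mul_apply', MultilinearMap.toLinearMap_apply,
      MultilinearMap.curryLeft_apply]
    congr 1
    funext j
    refine Fin.cases ?_ (fun j => ?_) j
    · simp
    · simp
  intro f hf
  rw [← hφ]
  refine polar_pow W a φ (fun w hw => ?_) f hf
  rw [hφ]
  refine hP.deriv _ _ fun s => h _ ?_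
  rw [← mul_smul_comm, ← mul_add, pow_add]
  exact Set.mul_mem_mul hv (pow_sub_mem W ha hu hw s)

lemma stepC (W : Submodule ℂ S) {a r : ℕ}
    (P : MultilinearMap ℂ (fun _ : Fin (a + 1) => S) ℂ) (z : S)
    (h : ∀ v ∈ (W : Set S) ^ r, ∀ f ∈ W ^ a, P.curryLeft (v * f) (fun _ => v * z) = 0) :
    ∀ m t, t + m = r → ∀ v1 ∈ (W : Set S) ^ t, ∀ v2 ∈ (W : Set S) ^ m, ∀ f ∈ W ^ (a + m),
      P.curryLeft (v1 * f) (fun _ => v1 * v2 * z) = 0 := by
  intro m
  induction m with
  | zero =>
    intro t ht v1 hv1 v2 hv2 f hf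
    obtain rfl : v2 = 1 := by simpa using hv2
    obtain rfl : t = r := by simpa using ht
    simpa using h v1 hv1 f hf
  | succ m ih =>
    intro t ht v1 hv1 v3 hv3 f hf
    rw [pow_succ] at hv3
    obtain ⟨v2, hv2, x, hx, rfl⟩ := Set.mem_mul.1 hv3
    let θ : S → S →ₗ[ℂ] ℂ := fun x =>
      (MultilinearMap.toLinearMap P (fun _ => v1 * (v2 * x) * z) 0).comp (LinearMap.mul ℂ S v1)
    have hθ : ∀ x f, θ x f = P.curryLeft (v1 * f) (fun _ => v1 * (v2 * x) * z) := by
      intro x f
      simp only [θ, LinearMap.comp_apply, LinearMap.mul_apply', MultilinearMap.toLinearMap_apply,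
        MultilinearMap.curryLeft_apply]
      congr 1
      funext j
      refine Fin.cases ?_ (fun j => ?_) j
      · simp
      · simp
    rw [← hθ]
    refine sl2 W θ a 1 (a + m) (by omega) (fun x y F => ?_) (fun u hu f hf => ?_) x hx f
      (by rwa [show 1 + (a + m) = a + (m + 1) by omega])
    · simp only [hθ]
      have := Curve.multilinear (P.curryLeft (v1 * F)) (fun _ => 1)
        (fun _ s => v1 * (v2 * (x + s • y)) * z) fun _ => by
          simpa using ((Curve.const v1).mul ((Curve.const v2).mul (Curve.lin x y))).mul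
            (Curve.const z)
      simpa using this
    · rw [hθ]
      have := ih (t + 1) (by omega) (v1 * u) (by rw [pow_succ]; exact Set.mul_mem_mul hv1 hu)
        v2 hv2 f hf
      rw [pow_one, ← mul_assoc]
      convert this using 3
      ring

lemma stepE (W : Submodule ℂ S) {ι : Type*} [Fintype ι] [DecidableEq ι] {N r : ℕ}
    (hr : (Fintype.card ι - 1) * N ≤ r)
    (P : MultilinearMap ℂ (fun _ : ι => S) ℂ)
    (h : ∀ u ∈ W, ∀ g : ι → S, (∀ i, g i ∈ W ^ r) → P (fun i => u ^ N * g i) = 0) :
    ∀ G : ι → S, (∀ i, G i ∈ W ^ (N + r)) → P G = 0 := by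
  have key : ∀ t : Finset ι, ∀ u ∈ W, ∀ g : ι → S, (∀ i, g i ∈ W ^ r) →
      ∀ G : ι → S, (∀ i, G i ∈ W ^ (N + r)) →
      P (t.piecewise G (fun i => u ^ N * g i)) = 0 := by
    intro t
    induction t using Finset.induction_on with
    | empty => intro u hu g hg G _; simpa using h u hu g hg
    | insert i0 t hi0 ih =>
      intro u hu g hg G hG
      let θ : S → S →ₗ[ℂ] ℂ := fun u =>
        MultilinearMap.toLinearMap P (t.piecewise G (fun i => u ^ N * g i)) i0
      have hθ : ∀ u f, θ u f
          = P (Function.update (t.piecewise G (fun i => u ^ N * g i)) i0 f) := fun _ _ => rfl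
      rw [Finset.piecewise_insert, ← hθ]
      refine sl2 W θ ((Fintype.card ι - 1) * N) N r hr (fun x y F => ?_) (fun u hu f hf => ?_)
        u hu _ (hG i0)
      · simp only [hθ]
        have := Curve.multilinear P (fun i => if i = i0 then 0 else N)
          (fun i s => Function.update (t.piecewise G (fun i => (x + s • y) ^ N * g i)) i0 F i)
          fun i => by
            by_cases hi : i = i0
            · subst hi
              simpa using Curve.const F
            · by_cases hit : i ∈ t
              · simpa [hi, hit] using (Curve.const (G i)).mono (Nat.zero_le N)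
              · simpa [hi, hit] using ((Curve.lin x y).pow N).mul (Curve.const (g i))
        refine this.mono (le_of_eq ?_)
        rw [← Finset.add_sum_erase _ _ (Finset.mem_univ i0), if_pos rfl, zero_add,
          Finset.sum_congr rfl (fun i hi => if_neg (Finset.ne_of_mem_erase hi))]
        simp
      · rw [hθ, ← ih u hu (Function.update g i0 f) (fun i => by
          by_cases hi : i = i0
          · subst hi; simpa using hf
          · simpa [hi] using hg i) G hG]
        congr 1
        funext i
        by_cases hi : i = i0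
        · subst hi; simp [hi0]
        · by_cases hit : i ∈ t <;> simp [hi, hit]
  intro G hG
  simpa using key Finset.univ 0 W.zero_mem 0 (fun _ => Submodule.zero_mem _) G hG

theorem core (W : Submodule ℂ S) : ∀ (a b : ℕ), a ^ 2 ≤ b →
    ∀ P : MultilinearMap ℂ (fun _ : Fin (a + 1) => S) ℂ, Symm P →
    (∀ g ∈ (W : Set S) ^ b, P (fun _ => g) = 0) →
    ∀ f : Fin (a + 1) → S, (∀ i, f i ∈ W ^ b) → P f = 0 := by
  intro a
  induction a with
  | zero =>
    intro b _ P _ h f hf
    have h0 := hf 0
    rw [Submodule.pow_eq_span_pow_set] at h0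
    have e : ∀ x, P.toLinearMap f 0 x = P (fun _ => x) := fun x => by
      rw [MultilinearMap.toLinearMap_apply]
      congr 1
      funext j
      obtain rfl : j = 0 := Subsingleton.elim (α := Fin 1) _ _
      simp
    have : Submodule.span ℂ ((W : Set S) ^ b) ≤ LinearMap.ker (P.toLinearMap f 0) := by
      rw [Submodule.span_le]
      intro g hg
      simpa [e] using h g hg
    simpa using this h0
  | succ a ih =>
    intro b hb P hP h f hf
    obtain ⟨r, rfl⟩ : ∃ r, b = r + (a + 1) := ⟨b - (a + 1), (Nat.sub_add_cancel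
      (show a + 1 ≤ b by nlinarith)).symm⟩
    have hA := stepA W (Nat.succ_pos a) P hP h
    have hC : ∀ u ∈ W, ∀ v ∈ (W : Set S) ^ r,
        P.curryLeft (f 0) (fun _ => u ^ (a + 1) * v) = 0 := by
      intro u hu v hv
      have := stepC W P (u ^ (a + 1)) (fun v hv f hf => hA v hv u hu f hf) r 0 (by simp) 1
        (by simp) v hv (f 0) (by rw [add_comm]; exact hf 0)
      simpa [mul_comm] using this
    have hD : ∀ u ∈ W, ∀ g : Fin (a + 1) → S, (∀ i, g i ∈ W ^ r) →
        P.curryLeft (f 0) (fun i => u ^ (a + 1) * g i) = 0 := by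
      intro u hu g hg
      refine ih r (by nlinarith)
        ((P.curryLeft (f 0)).compLinearMap fun _ => LinearMap.mul ℂ S (u ^ (a + 1)))
        (fun σ g => ?_) (fun v hv => hC u hu v hv) g hg
      exact hP.curryLeft (f 0) σ (fun i => u ^ (a + 1) * g i)
    have := stepE W (N := a + 1) (r := r) (by simp; nlinarith) (P.curryLeft (f 0)) hD
      (Fin.tail f) (fun i => by rw [add_comm]; exact hf i.succ)
    rwa [MultilinearMap.curryLeft_apply, Fin.cons_self_tail] at this

end Vale.Agent.P181
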