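import Mathlib

set_option linter.unusedSectionVars false
set_option linter.unusedSimpArgs false
set_option linter.deprecated false

namespace Vale.Agent.P181

open Finset Polynomial

variable {S : Type*} [CommRing S] [Algebra ℂ S]

/-- polynomial curve of degree at most d -/
def Curve (d : ℕ) (γ : ℂ → S) : Prop :=
  ∃ p : S[X], p.natDegree ≤ d ∧ ∀ s, γ s = p.eval (algebraMap ℂ S s)

lemma Curve.const (x : S) : Curve 0 (fun _ => x) := ⟨C x, by simp, by simp⟩

lemma Curve.mono {d e : ℕ} {γ : ℂ → S} (h : Curve d γ) (hde : d ≤ e) : Curve e γ := by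
  obtain ⟨p, h1, h2⟩ := h
  exact ⟨p, h1.trans hde, h2⟩

lemma Curve.mul {d e : ℕ} {γ δ : ℂ → S} (h : Curve d γ) (h' : Curve e δ) :
    Curve (d + e) (fun s => γ s * δ s) := by
  obtain ⟨p, h1, h2⟩ := h
  obtain ⟨q, h3, h4⟩ := h'
  exact ⟨p * q, natDegree_mul_le.trans (add_le_add h1 h3), fun s => by simp [h2, h4]⟩

lemma Curve.pow {d : ℕ} {γ : ℂ → S} (h : Curve d γ) (n : ℕ) :
    Curve (n * d) (fun s => γ s ^ n) := by
  obtain ⟨p, h1, h2⟩ := h
  exact ⟨p ^ n, natDegree_pow_le.trans (Nat.mul_le_mul_left _ h1), fun s => by simp [h2]⟩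

lemma Curve.lin (x y : S) : Curve 1 (fun s => x + s • y) := by
  refine ⟨C x + C y * X, ?_, fun s => by
    simp only [Algebra.smul_def, eval_add, eval_mul, eval_C, eval_X]; ring⟩
  compute_degree

lemma Curve.multilinear {ι : Type*} [Fintype ι] [DecidableEq ι]
    (P : MultilinearMap ℂ (fun _ : ι => S) ℂ) (d : ι → ℕ) (γ : ι → ℂ → S)
    (h : ∀ i, Curve (d i) (γ i)) : Curve (S := ℂ) (∑ i, d i) (fun s => P (fun i => γ i s)) := by
  choose p hp1 hp2 using h
  refine ⟨∑ r ∈ Fintype.piFinset (fun i => range (d i + 1)),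
    C (P (fun i => (p i).coeff (r i))) * X ^ (∑ i, r i), ?_, fun s => ?_⟩
  · refine natDegree_sum_le_of_forall_le _ _ fun r hr => ?_
    refine (natDegree_C_mul_X_pow_le _ _).trans (Finset.sum_le_sum fun i _ => ?_)
    have := Fintype.mem_piFinset.1 hr i
    simp at this; omega
  · have : (fun i => γ i s) = fun i => ∑ j ∈ range (d i + 1), s ^ j • (p i).coeff j := by
      funext i
      rw [hp2, eval_eq_sum_range' (Nat.lt_succ_of_le (hp1 i))]
      exact Finset.sum_congr rfl fun j _ => by rw [Algebra.smul_def, map_pow, mul_comm]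
    show P _ = _
    rw [this, P.map_sum_finset, eval_finset_sum]
    refine Finset.sum_congr rfl fun r _ => ?_
    rw [P.map_smul_univ]
    simp only [Finset.prod_pow_eq_pow_sum, eval_mul, eval_C, eval_pow, eval_X, smul_eq_mul,
      Algebra.algebraMap_self, RingHom.id_apply]
    ring

section polar

variable {M : Type*} [AddCommGroup M] [Module ℂ M]

lemma deriv_zero {ι : Type*} [Fintype ι] [DecidableEq ι]
    (P : MultilinearMap ℂ (fun _ : ι => M) ℂ) (m m' : ι → M)
    (h : ∀ s : ℂ, P (fun i => m i + s • m' i) = 0) :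
    ∑ i, P (Function.update m i (m' i)) = 0 := by
  have hp : (∑ t : Finset ι, C (P (t.piecewise m' m)) * X ^ t.card : ℂ[X]) = 0 := by
    refine Polynomial.funext fun s => ?_
    rw [eval_zero, ← h s, eval_finset_sum]
    have : (fun i => m i + s • m' i) = (fun i => s • m' i) + m := by
      funext i; simp [add_comm]
    rw [this, P.map_add_univ]
    refine Finset.sum_congr rfl fun t _ => ?_
    have h2 : t.piecewise (fun i => s • m' i) m
        = t.piecewise (fun i => s • (t.piecewise m' m) i) (t.piecewise m' m) := by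
      funext i
      by_cases hi : i ∈ t <;> simp [hi]
    rw [h2, P.map_piecewise_smul]
    simp only [Finset.prod_const, eval_mul, eval_C, eval_pow, eval_X, smul_eq_mul]
    ring
  have h1 := congrArg (fun q : ℂ[X] => q.coeff 1) hp
  simp only [finset_sum_coeff, coeff_C_mul, coeff_X_pow, coeff_zero, mul_ite, mul_one,
    mul_zero] at h1
  rw [← Finset.sum_filter] at h1
  rw [← h1]
  refine Finset.sum_bij (fun i _ => {i}) (fun i _ => by simp) (fun i _ j _ hij => by simpa using hij)
    (fun t ht => ?_) (fun i _ => by rw [Finset.piecewise_singleton])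
  obtain ⟨i, rfl⟩ := Finset.card_eq_one.1 (Finset.mem_filter.1 ht).2.symm
  exact ⟨i, Finset.mem_univ _, rfl⟩

/-- symmetric multilinear map -/
def Symm {ι N : Type*} [AddCommGroup N] [Module ℂ N]
    (P : MultilinearMap ℂ (fun _ : ι => M) N) : Prop :=
  ∀ (σ : Equiv.Perm ι) (f : ι → M), P (fun i => f (σ i)) = P f

lemma Symm.curryLeft {n : ℕ} {P : MultilinearMap ℂ (fun _ : Fin (n + 1) => M) ℂ} (h : Symm P)
    (x : M) : Symm (P.curryLeft x) := by
  intro σ f
  simp only [MultilinearMap.curryLeft_apply]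
  rw [← h (Equiv.Perm.decomposeFin.symm (0, σ)) (Fin.cons x f)]
  congr 1
  funext i
  refine Fin.cases ?_ (fun j => ?_) i
  · simp
  · simp

lemma Symm.deriv {n : ℕ} {P : MultilinearMap ℂ (fun _ : Fin (n + 1) => M) ℂ} (hP : Symm P)
    (m m' : M) (h : ∀ s : ℂ, P (fun _ => m + s • m') = 0) :
    P.curryLeft m' (fun _ => m) = 0 := by
  have h1 := deriv_zero P (fun _ => m) (fun _ => m') h
  have h2 : ∀ i, P (Function.update (fun _ => m) i m') = P.curryLeft m' (fun _ => m) := by
    intro i
    rw [MultilinearMap.curryLeft_apply, ← hP (Equiv.swap 0 i)]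
    congr 1
    funext j
    refine Fin.cases ?_ (fun j => ?_) j
    · simp
    · rw [Fin.cons_succ, Function.update_of_ne]
      intro hj
      have := congrArg (Equiv.swap 0 i) hj
      simp at this
  simp only [h2, Finset.sum_const, Finset.card_univ, Fintype.card_fin, nsmul_eq_mul] at h1
  exact (mul_eq_zero.1 h1).resolve_left (by exact_mod_cast Nat.succ_ne_zero n)

lemma Symm.polar : ∀ {n : ℕ} {P : MultilinearMap ℂ (fun _ : Fin n => M) ℂ}, Symm P →
    (∀ m, P (fun _ => m) = 0) → ∀ f, P f = 0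
  | 0, P, _, h, f => by
      rw [← h 0]; congr 1; exact Subsingleton.elim _ _
  | n + 1, P, hP, h, f => by
      have := Symm.polar (hP.curryLeft (f 0)) (fun m => hP.deriv m (f 0) fun s => h _) (Fin.tail f)
      rwa [MultilinearMap.curryLeft_apply, Fin.cons_self_tail] at this

end polar

open scoped Pointwise

lemma polar_pow (W : Submodule ℂ S) (n : ℕ) (φ : S →ₗ[ℂ] ℂ) (h : ∀ w ∈ W, φ (w ^ n) = 0) :
    ∀ f ∈ W ^ n, φ f = 0 := by
  let P : MultilinearMap ℂ (fun _ : Fin n => W) ℂ :=
    φ.compMultilinearMap ((MultilinearMap.mkPiAlgebra ℂ (Fin n) S).compLinearMap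
      fun _ => W.subtype)
  have hP : ∀ f, P f = φ (∏ i, (f i : S)) := fun f => by simp [P]
  have hs : Symm P := fun σ f => by
    rw [hP, hP, Equiv.prod_comp σ (fun i => (f i : S))]
  have h0 := hs.polar (fun m => by rw [hP]; simpa using h m m.2)
  intro f hf
  rw [Submodule.pow_eq_span_pow_set] at hf
  have : Submodule.span ℂ ((W : Set S) ^ n) ≤ LinearMap.ker φ := by
    rw [Submodule.span_le]
    intro g hg
    obtain ⟨f, rfl⟩ := Set.mem_pow.1 hg
    have := h0 (fun i => ⟨f i, (f i).2⟩)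
    rw [hP] at this
    simpa [List.prod_ofFn] using this
  exact this hf

lemma pow_sub_mem (W : Submodule ℂ S) {N : ℕ} (hN : 0 < N) {u w : S} (hu : u ∈ W) (hw : w ∈ W)
    (s : ℂ) : u ^ N + s • w ^ N ∈ (W : Set S) ^ N := by
  obtain ⟨δ, hδ⟩ := IsAlgClosed.exists_pow_nat_eq (-s) hN
  have hζ := Complex.isPrimitiveRoot_exp N hN.ne'
  set ζ := Complex.exp (2 * Real.pi * Complex.I / N)
  have hζ' : IsPrimitiveRoot (C ζ : ℂ[X]) N := hζ.map_of_injective C_injective
  have key := X_pow_sub_C_eq_prod hζ' hN (α := X) rfl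
  have key2 := congrArg (eval₂RingHom (eval₂RingHom (algebraMap ℂ S) (δ • w)) u) key
  simp only [map_sub, map_pow, coe_eval₂RingHom, eval₂_X, eval₂_C, map_prod, map_mul,
    eval₂_mul] at key2
  have h3 : u ^ N + s • w ^ N = ∏ i : Fin N, (u - (ζ ^ (i : ℕ) * δ) • w) := by
    rw [Fin.prod_univ_eq_prod_range (fun i => u - (ζ ^ i * δ) • w)]
    rw [_root_.smul_pow, hδ, neg_smul, sub_neg_eq_add] at key2
    rw [key2]
    refine Finset.prod_congr rfl fun i _ => ?_
    simp [Algebra.smul_def, mul_assoc]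
  rw [h3, Set.mem_pow]
  exact ⟨fun i => ⟨u - (ζ ^ (i : ℕ) * δ) • w, W.sub_mem hu (W.smul_mem _ hw)⟩,
    by simp [List.prod_ofFn]⟩

lemma sl2 (W : Submodule ℂ S) (θ : S → S →ₗ[ℂ] ℂ) (k N m : ℕ) (hk : k ≤ m)
    (hdeg : ∀ x y F, Curve (S := ℂ) k (fun s => θ (x + s • y) F))
    (hvan : ∀ u ∈ W, ∀ f ∈ W ^ m, θ u (u ^ N * f) = 0) :
    ∀ x ∈ W, ∀ F ∈ W ^ (N + m), θ x F = 0 := by
  intro x hx
  refine polar_pow W _ _ fun y hy => ?_
  choose p hp1 hp2 using fun i => hdeg x y (x ^ i * y ^ (N + m - i))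
  have hrel : ∀ j ≤ m, ∑ l ∈ range (N + 1), (N.choose l : ℂ) * (p (l + j)).coeff (l + j) = 0 := by
    intro j hj
    have h1 : (∑ l ∈ range (N + 1), C (N.choose l : ℂ) * (p (l + j) * X ^ (N - l)) : ℂ[X]) = 0 := by
      refine Polynomial.funext fun s => ?_
      have hf : x ^ j * y ^ (m - j) ∈ W ^ m := by
        have := Submodule.mul_mem_mul (W.pow_mem_pow hx j) (W.pow_mem_pow hy (m - j))
        rwa [← pow_add, Nat.add_sub_cancel' hj] at this
      rw [eval_zero, ← hvan (x + s • y) (W.add_mem hx (W.smul_mem _ hy)) _ hf, add_pow,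
        Finset.sum_mul, map_sum, eval_finset_sum]
      refine Finset.sum_congr rfl fun l hl => ?_
      have hl' : l ≤ N := by simpa [Nat.lt_succ_iff] using hl
      have h2 := hp2 (l + j) s
      simp only [Algebra.algebraMap_self, RingHom.id_apply] at h2
      have h3 : x ^ l * (s • y) ^ (N - l) * (N.choose l : S) * (x ^ j * y ^ (m - j))
          = ((N.choose l : ℂ) * s ^ (N - l)) • (x ^ (l + j) * y ^ (N + m - (l + j))) := by
        rw [show N + m - (l + j) = (N - l) + (m - j) by omega]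
        simp only [Algebra.smul_def, map_mul, map_pow, map_natCast, pow_add, mul_pow]
        ring
      rw [h3, map_smul, h2]
      simp only [eval_mul, eval_C, eval_pow, eval_X, smul_eq_mul]
      ring
    have h2 := congrArg (fun q : ℂ[X] => q.coeff (N + j)) h1
    simp only [finset_sum_coeff, coeff_C_mul, coeff_zero] at h2
    rw [← h2]
    refine Finset.sum_congr rfl fun l hl => ?_
    have hl' : l ≤ N := by simpa [Nat.lt_succ_iff] using hl
    rw [show N + j = (l + j) + (N - l) by omega, coeff_mul_X_pow]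
  have hall : ∀ t j, k < j + t → (p j).coeff j = 0 := by
    intro t
    induction t with
    | zero => intro j hj; exact coeff_eq_zero_of_natDegree_lt (lt_of_le_of_lt (hp1 j) hj)
    | succ t ih =>
      intro j hj
      by_cases hjk : k < j
      · exact coeff_eq_zero_of_natDegree_lt (lt_of_le_of_lt (hp1 j) hjk)
      · have := hrel j (by omega)
        rw [Finset.sum_range_succ', Finset.sum_eq_zero fun l _ => by
          rw [ih (l + 1 + j) (by omega), mul_zero]] at this
        simpa using this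
  have h0 := hall (k + 1) 0 (by omega)
  have h1 := hp2 0 0
  simp only [zero_smul, add_zero, pow_zero, one_mul, Nat.sub_zero, map_zero] at h1
  rw [h1, ← coeff_zero_eq_eval_zero, h0]

end Vale.Agent.P181
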