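import Mathlib

namespace Vale.Agent.P181

section

variable (n : ℕ) {M N : Type*} [AddCommGroup M] [Module ℂ M] [AddCommGroup N] [Module ℂ N]

/-- The `n`-fold tensor power of `g`, followed by the projection onto the symmetric power. -/
noncomputable def tensMap (g : M →ₗ[ℂ] N) :
    PiTensorProduct ℂ (fun _ : Fin n => M) →ₗ[ℂ] SymmetricPower ℂ (Fin n) N :=
  (SymmetricPower.mk ℂ (Fin n) N).comp (PiTensorProduct.map fun _ => g)

theorem tensMap_le (g : M →ₗ[ℂ] N) :
    addConGen (SymmetricPower.Rel ℂ (Fin n) M) ≤ AddCon.ker (tensMap n g).toAddMonoidHom :=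
  AddCon.addConGen_le.2 (by
    rintro _ _ ⟨e, f⟩
    simp only [tensMap, AddCon.ker_rel, LinearMap.toAddMonoidHom_coe, LinearMap.comp_apply,
      PiTensorProduct.map_tprod]
    exact (SymmetricPower.tprod_equiv e fun i => g (f i)).symm)

/-- `tensMap` descended to the symmetric power (a quotient of the tensor power). -/
noncomputable def symHom (g : M →ₗ[ℂ] N) :
    SymmetricPower ℂ (Fin n) M →+ SymmetricPower ℂ (Fin n) N :=
  AddCon.lift _ (tensMap n g).toAddMonoidHom (tensMap_le n g)

/-- The underlying function of `symHom`. -/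
noncomputable def symFun (g : M →ₗ[ℂ] N) (x : SymmetricPower ℂ (Fin n) M) :
    SymmetricPower ℂ (Fin n) N :=
  symHom n g x

theorem symFun_add (g : M →ₗ[ℂ] N) (x y : SymmetricPower ℂ (Fin n) M) :
    symFun n g (x + y) = symFun n g x + symFun n g y :=
  map_add (symHom n g) x y

theorem symFun_smul (g : M →ₗ[ℂ] N) (r : ℂ) (x : SymmetricPower ℂ (Fin n) M) :
    symFun n g (r • x) = r • symFun n g x :=
  AddCon.induction_on x fun y => map_smul (tensMap n g) r y

/-- The linear map induced by a linear map `g` on `n`-th symmetric powers: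
it sends the product of `v 0, ..., v (n-1)` to the product of `g (v 0), ..., g (v (n-1))`. -/
noncomputable def symMap (g : M →ₗ[ℂ] N) :
    SymmetricPower ℂ (Fin n) M →ₗ[ℂ] SymmetricPower ℂ (Fin n) N where
  toFun := symFun n g
  map_add' := symFun_add n g
  map_smul' := symFun_smul n g

end

/-- `Sym^a (Sym^b V)` -/
abbrev Pleth (a b : ℕ) (V : Type*) [AddCommGroup V] [Module ℂ V] : Type _ :=
  SymmetricPower ℂ (Fin a) (SymmetricPower ℂ (Fin b) V)

variable {V : Type*} [AddCommGroup V] [Module ℂ V]

/-- The product over rows `i` of the products `v i 0 ⋯ v i (b-1)`. -/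
noncomputable def dprod {a b : ℕ} (v : Fin a → Fin b → V) : Pleth a b V :=
  SymmetricPower.tprod ℂ fun i => SymmetricPower.tprod ℂ fun j => v i j

/-- The action of `g ∈ GL(V)` on `Sym^a (Sym^b V)`. -/
noncomputable def act (a b : ℕ) (g : V ≃ₗ[ℂ] V) (x : Pleth a b V) : Pleth a b V :=
  symFun a (symMap b (g : V →ₗ[ℂ] V)) x

end Vale.Agent.P181
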