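import Vale.Agent.P181.Core
import Vale.Agent.P181.Defs

set_option linter.unusedSectionVars false
set_option linter.unusedSimpArgs false
set_option linter.deprecated false

namespace Vale.Agent.P181

open Finset TensorProduct
open scoped Pointwise

section general

variable {M N : Type*} [AddCommGroup M] [Module ℂ M] [AddCommGroup N] [Module ℂ N] {n : ℕ}

lemma symMap_tprod (g : M →ₗ[ℂ] N) (f : Fin n → M) :
    symMap n g (SymmetricPower.tprod ℂ f) = SymmetricPower.tprod ℂ (fun i => g (f i)) := by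
  show ((SymmetricPower.mk ℂ (Fin n) N).comp (PiTensorProduct.map fun _ => g))
    (PiTensorProduct.tprod ℂ f) = _
  rw [LinearMap.comp_apply, PiTensorProduct.map_tprod]
  rfl

/-- universal property -/
noncomputable def symLift (F : MultilinearMap ℂ (fun _ : Fin n => M) N) (hF : Symm F) :
    SymmetricPower ℂ (Fin n) M →ₗ[ℂ] N where
  toFun := AddCon.lift (addConGen (SymmetricPower.Rel ℂ (Fin n) M))
    (PiTensorProduct.lift F).toAddMonoidHom
    (AddCon.addConGen_le.2 (by
      rintro _ _ ⟨e, f⟩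
      simp only [AddCon.ker_rel, LinearMap.toAddMonoidHom_coe, PiTensorProduct.lift.tprod]
      exact (hF e f).symm))
  map_add' := map_add _
  map_smul' r x := AddCon.induction_on x fun y => map_smul (PiTensorProduct.lift F) r y

lemma symLift_tprod (F : MultilinearMap ℂ (fun _ : Fin n => M) N) (hF : Symm F) (f : Fin n → M) :
    symLift F hF (SymmetricPower.tprod ℂ f) = F f := by
  show PiTensorProduct.lift F (PiTensorProduct.tprod ℂ f) = _
  simp

lemma sym_ext {φ ψ : SymmetricPower ℂ (Fin n) M →ₗ[ℂ] N}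
    (h : ∀ f, φ (SymmetricPower.tprod ℂ f) = ψ (SymmetricPower.tprod ℂ f)) : φ = ψ := by
  refine LinearMap.ext_on (SymmetricPower.span_tprod_eq_top ℂ (Fin n) M) ?_
  rintro _ ⟨f, rfl⟩
  exact h f

lemma sym_ext2 {m : ℕ} {φ ψ : SymmetricPower ℂ (Fin n) (SymmetricPower ℂ (Fin m) M) →ₗ[ℂ] N}
    (h : ∀ v : Fin n → Fin m → M,
      φ (SymmetricPower.tprod ℂ fun i => SymmetricPower.tprod ℂ (v i))
        = ψ (SymmetricPower.tprod ℂ fun i => SymmetricPower.tprod ℂ (v i))) : φ = ψ := by
  refine sym_ext fun f => ?_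
  have := MultilinearMap.ext_of_span_eq_top (R := ℂ) (ι := Fin n)
    (M := fun _ => SymmetricPower ℂ (Fin m) M) (γ := fun _ => Fin m → M)
    (g := fun _ v => SymmetricPower.tprod ℂ v)
    (fun _ => SymmetricPower.span_tprod_eq_top ℂ (Fin m) M)
    (φ := φ.compMultilinearMap (SymmetricPower.tprod ℂ))
    (φ' := ψ.compMultilinearMap (SymmetricPower.tprod ℂ)) h
  exact DFunLike.congr_fun this f

/-- symmetrization -/
noncomputable def sym (n : ℕ) (M : Type*) [AddCommGroup M] [Module ℂ M] :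
    SymmetricPower ℂ (Fin n) M →ₗ[ℂ] (⨂[ℂ] _ : Fin n, M) :=
  symLift (∑ σ : Equiv.Perm (Fin n), (PiTensorProduct.tprod ℂ).domDomCongr σ) (by
    intro τ f
    simp only [MultilinearMap.sum_apply, MultilinearMap.domDomCongr_apply]
    exact Fintype.sum_equiv (Equiv.mulLeft τ) _ _ fun σ => rfl)

lemma sym_tprod (f : Fin n → M) : sym n M (SymmetricPower.tprod ℂ f)
    = ∑ σ : Equiv.Perm (Fin n), PiTensorProduct.tprod ℂ (fun i => f (σ i)) := by
  refine (symLift_tprod _ _ f).trans ?_
  simp only [MultilinearMap.sum_apply, MultilinearMap.domDomCongr_apply]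

lemma mk_sym (x : SymmetricPower ℂ (Fin n) M) :
    SymmetricPower.mk ℂ (Fin n) M (sym n M x) = (n.factorial : ℂ) • x := by
  have : (SymmetricPower.mk ℂ (Fin n) M).comp (sym n M) = (n.factorial : ℂ) • LinearMap.id := by
    refine sym_ext fun f => ?_
    rw [LinearMap.comp_apply, sym_tprod, map_sum]
    have : ∀ σ : Equiv.Perm (Fin n), SymmetricPower.mk ℂ (Fin n) M
        (PiTensorProduct.tprod ℂ (fun i => f (σ i))) = SymmetricPower.tprod ℂ f :=
      fun σ => SymmetricPower.tprod_equiv σ f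
    simp only [this, Finset.sum_const, Finset.card_univ, Fintype.card_perm, Fintype.card_fin,
      LinearMap.smul_apply, LinearMap.id_apply, Nat.cast_smul_eq_nsmul]
  exact DFunLike.congr_fun this x

/-- pairing of a tensor of functionals with the symmetric power -/
noncomputable def beta (n : ℕ) (M : Type*) [AddCommGroup M] [Module ℂ M] :
    (⨂[ℂ] _ : Fin n, Module.Dual ℂ M) →ₗ[ℂ] Module.Dual ℂ (SymmetricPower ℂ (Fin n) M) :=
  (sym n M).dualMap.comp PiTensorProduct.dualDistrib

/-- multilinear version -/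
noncomputable def BB (n : ℕ) (M : Type*) [AddCommGroup M] [Module ℂ M] :
    MultilinearMap ℂ (fun _ : Fin n => Module.Dual ℂ M)
      (Module.Dual ℂ (SymmetricPower ℂ (Fin n) M)) :=
  (beta n M).compMultilinearMap (PiTensorProduct.tprod ℂ)

lemma BB_tprod (ξ : Fin n → Module.Dual ℂ M) (f : Fin n → M) :
    BB n M ξ (SymmetricPower.tprod ℂ f) = ∑ σ : Equiv.Perm (Fin n), ∏ i, ξ i (f (σ i)) := by
  simp only [BB, beta, LinearMap.compMultilinearMap_apply, LinearMap.comp_apply,
    LinearMap.dualMap_apply, sym_tprod, map_sum, PiTensorProduct.dualDistrib_apply]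

lemma BB_symm : Symm (BB n M) := by
  intro τ ξ
  refine sym_ext fun f => ?_
  rw [BB_tprod, BB_tprod]
  refine Fintype.sum_equiv (Equiv.mulRight τ⁻¹) _ _ fun σ => ?_
  exact Fintype.prod_equiv τ _ _ fun i => by simp

lemma BB_diag (ξ : Module.Dual ℂ M) (f : Fin n → M) :
    BB n M (fun _ => ξ) (SymmetricPower.tprod ℂ f) = n.factorial * ∏ i, ξ (f i) := by
  rw [BB_tprod, Finset.sum_congr rfl fun σ _ => Equiv.prod_comp σ (fun i => ξ (f i))]
  simp [Fintype.card_perm]

lemma BB_diag' (ξ : Fin n → Module.Dual ℂ M) (v : M) :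
    BB n M ξ (SymmetricPower.tprod ℂ fun _ => v) = n.factorial * ∏ i, ξ i v := by
  rw [BB_tprod]
  simp [Fintype.card_perm]

instance [Module.Finite ℂ M] : Module.Finite ℂ (SymmetricPower ℂ (Fin n) M) :=
  Module.Finite.of_surjective (SymmetricPower.mk ℂ (Fin n) M)
    (LinearMap.range_eq_top.1 (SymmetricPower.range_mk ℂ (Fin n) M))

lemma dualDistrib_surj [Module.Finite ℂ M] : Function.Surjective
    (PiTensorProduct.dualDistrib (R := ℂ) (M := fun _ : Fin n => M)) :=
  (PiTensorProduct.dualDistribEquiv (R := ℂ) (M := fun _ : Fin n => M)).surjective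

lemma beta_surj [Module.Finite ℂ M] : Function.Surjective (beta n M) := by
  intro ξ
  obtain ⟨t, ht⟩ := dualDistrib_surj (n := n) (ξ.comp (SymmetricPower.mk ℂ (Fin n) M))
  refine ⟨(n.factorial : ℂ)⁻¹ • t, ?_⟩
  ext x
  have h : (n.factorial : ℂ) ≠ 0 := by exact_mod_cast n.factorial_ne_zero
  simp only [beta, map_smul, LinearMap.comp_apply, ht, LinearMap.smul_apply,
    LinearMap.dualMap_apply, mk_sym, smul_eq_mul]
  field_simp

lemma eq_zero_of_BB [Module.Finite ℂ M] (x : SymmetricPower ℂ (Fin n) M)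
    (h : ∀ ξ, BB n M ξ x = 0) : x = 0 := by
  rw [← Module.forall_dual_apply_eq_zero_iff ℂ]
  intro ξ
  obtain ⟨t, rfl⟩ := beta_surj ξ
  have : (Module.Dual.eval ℂ _ x).comp (beta n M) = 0 := by
    ext ξ
    exact h ξ
  exact DFunLike.congr_fun this t

/-- a functional on the symmetric power as a function on the space -/
noncomputable def iota (n : ℕ) (M : Type*) [AddCommGroup M] [Module ℂ M] :
    Module.Dual ℂ (SymmetricPower ℂ (Fin n) M) →ₗ[ℂ] (M → ℂ) :=
  LinearMap.pi fun v => Module.Dual.eval ℂ _ (SymmetricPower.tprod ℂ fun _ => v)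

lemma iota_apply (ξ : Module.Dual ℂ (SymmetricPower ℂ (Fin n) M)) (v : M) :
    iota n M ξ v = ξ (SymmetricPower.tprod ℂ fun _ => v) := rfl

lemma iota_inj : LinearMap.ker (iota n M) = ⊥ := by
  rw [LinearMap.ker_eq_bot']
  intro ξ hξ
  refine sym_ext fun f => ?_
  exact Symm.polar (P := ξ.compMultilinearMap (SymmetricPower.tprod ℂ))
    (fun σ f => congrArg ξ (SymmetricPower.tprod_equiv σ f)) (fun v => congrFun hξ v) f

/-- linear forms as functions -/
noncomputable def WW (M : Type*) [AddCommGroup M] [Module ℂ M] : Submodule ℂ (M → ℂ) :=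
  LinearMap.range (LinearMap.pi fun v => Module.Dual.eval ℂ M v)

lemma mem_WW (f : M → ℂ) : f ∈ WW M ↔ ∃ u : Module.Dual ℂ M, ⇑u = f := Iff.rfl

lemma mem_WW_pow (f : M → ℂ) : f ∈ (WW M : Set (M → ℂ)) ^ n ↔
    ∃ u : Fin n → Module.Dual ℂ M, f = fun v => ∏ i, u i v := by
  rw [Set.mem_pow]
  constructor
  · rintro ⟨g, rfl⟩
    choose u hu using fun i => (mem_WW _).1 (g i).2
    refine ⟨u, ?_⟩
    funext v
    simp [List.prod_ofFn, hu]
  · rintro ⟨u, rfl⟩
    refine ⟨fun i => ⟨u i, (mem_WW _).2 ⟨u i, rfl⟩⟩, ?_⟩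
    funext v
    simp [List.prod_ofFn]

lemma iota_BB (u : Fin n → Module.Dual ℂ M) :
    iota n M (BB n M u) = (n.factorial : ℂ) • fun v => ∏ i, u i v := by
  funext v
  rw [iota_apply, BB_diag']
  rfl

lemma iota_mem [Module.Finite ℂ M] (ξ : Module.Dual ℂ (SymmetricPower ℂ (Fin n) M)) :
    iota n M ξ ∈ WW M ^ n := by
  obtain ⟨t, rfl⟩ := beta_surj ξ
  induction t using PiTensorProduct.induction_on with
  | smul_tprod r u =>
    rw [map_smul, map_smul]
    refine Submodule.smul_mem _ _ ?_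
    have := iota_BB u
    rw [BB, LinearMap.compMultilinearMap_apply] at this
    rw [this]
    exact Submodule.smul_mem _ _ (Submodule.pow_subset_pow _ ((mem_WW_pow _).2 ⟨u, rfl⟩))
  | add x y hx hy => rw [map_add, map_add]; exact Submodule.add_mem _ hx hy

end general

end Vale.Agent.P181
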