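import Vale.Agent.P181.Link

set_option linter.unusedSectionVars false
set_option linter.unusedSimpArgs false
set_option linter.deprecated false

namespace Vale.Agent.P181

open Finset TensorProduct
open scoped Pointwise

variable {V : Type*} [AddCommGroup V] [Module ℂ V]

lemma double_expand {N X ι κ K : Type*} [AddCommGroup N] [Module ℂ N] [AddCommGroup X]
    [Module ℂ X] [Fintype ι] [Fintype κ] [Fintype K] [DecidableEq ι] [DecidableEq κ]
    (A : MultilinearMap ℂ (fun _ : ι => N) X) (B : MultilinearMap ℂ (fun _ : κ => V) N)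
    (c : ι → κ → K → ℂ) (e : K → V) :
    A (fun i => B (fun j => ∑ k, c i j k • e k))
      = ∑ r : ι → κ → K, (∏ i, ∏ j, c i j (r i j)) • A (fun i => B (fun j => e (r i j))) := by
  simp only [B.map_sum, B.map_smul_univ, A.map_sum, A.map_smul_univ]

lemma exists_T [FiniteDimensional ℂ V] (a b : ℕ) :
    ∃ T : (⨂[ℂ] _ : Fin a, (⨂[ℂ] _ : Fin b, V)) →ₗ[ℂ]
        SymmetricPower ℂ (Fin b) (SymmetricPower ℂ (Fin a) V),
      ∀ v : Fin a → Fin b → V,
        T (PiTensorProduct.tprod ℂ fun i => PiTensorProduct.tprod ℂ (v i))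
          = SymmetricPower.tprod ℂ fun j => SymmetricPower.tprod ℂ fun i => v i j := by
  let e := Module.finBasis ℂ V
  let E := Basis.piTensorProduct fun _ : Fin a => Basis.piTensorProduct fun _ : Fin b => e
  let T := E.constr ℂ fun r => (SymmetricPower.tprod ℂ fun j => SymmetricPower.tprod ℂ
    fun i => e (r i j) : SymmetricPower ℂ (Fin b) (SymmetricPower ℂ (Fin a) V))
  refine ⟨T, fun v => ?_⟩
  have hv : v = fun i j => ∑ k, e.repr (v i j) k • e k := by
    funext i j; exact (e.sum_repr _).symm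
  rw [hv]
  have h1 := double_expand (T.compMultilinearMap (PiTensorProduct.tprod ℂ))
    (PiTensorProduct.tprod ℂ) (fun i j k => e.repr (v i j) k) e
  have h2 := double_expand
    (SymmetricPower.tprod ℂ (ι := Fin b) (M := SymmetricPower ℂ (Fin a) V))
    (SymmetricPower.tprod ℂ (ι := Fin a) (M := V)) (fun j i k => e.repr (v i j) k) e
  refine h1.trans (Eq.trans ?_ h2.symm)
  refine Fintype.sum_equiv ⟨Function.swap, Function.swap, fun _ => rfl, fun _ => rfl⟩ _ _
    fun r => ?_
  have : E r = PiTensorProduct.tprod ℂ fun i => PiTensorProduct.tprod ℂ fun j => e (r i j) := by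
    simp [E]
  rw [Finset.prod_comm, LinearMap.compMultilinearMap_apply, ← this]
  exact congrArg₂ _ rfl (E.constr_basis ℂ _ r)

lemma exists_Psi [FiniteDimensional ℂ V] (a b : ℕ) :
    ∃ Ψ : SymmetricPower ℂ (Fin a) (SymmetricPower ℂ (Fin b) V) →ₗ[ℂ]
        SymmetricPower ℂ (Fin b) (SymmetricPower ℂ (Fin a) V),
      ∀ v : Fin a → Fin b → V,
        Ψ (SymmetricPower.tprod ℂ fun i => SymmetricPower.tprod ℂ (v i))
          = ∑ σ : Fin a → Equiv.Perm (Fin b),
            SymmetricPower.tprod ℂ fun j => SymmetricPower.tprod ℂ fun i => v i (σ i j) := by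
  obtain ⟨T, hT⟩ := exists_T (V := V) a b
  let F : MultilinearMap ℂ (fun _ : Fin a => SymmetricPower ℂ (Fin b) V)
      (SymmetricPower ℂ (Fin b) (SymmetricPower ℂ (Fin a) V)) :=
    (T.compMultilinearMap (PiTensorProduct.tprod ℂ)).compLinearMap fun _ => sym b V
  have hF : ∀ v : Fin a → Fin b → V, F (fun i => SymmetricPower.tprod ℂ (v i))
      = ∑ σ : Fin a → Equiv.Perm (Fin b),
          SymmetricPower.tprod ℂ fun j => SymmetricPower.tprod ℂ fun i => v i (σ i j) := by
    intro v
    simp only [F, MultilinearMap.compLinearMap_apply, sym_tprod, MultilinearMap.map_sum,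
      LinearMap.compMultilinearMap_apply, map_sum, hT]
  have hs : Symm F := by
    intro τ f
    have := MultilinearMap.ext_of_span_eq_top (R := ℂ) (ι := Fin a)
      (M := fun _ => SymmetricPower ℂ (Fin b) V) (γ := fun _ => Fin b → V)
      (g := fun _ v => SymmetricPower.tprod ℂ v)
      (fun _ => SymmetricPower.span_tprod_eq_top ℂ (Fin b) V)
      (φ := F.domDomCongr τ) (φ' := F) (fun v => by
        rw [MultilinearMap.domDomCongr_apply, hF (fun i => v (τ i)), hF]
        refine (Fintype.sum_equiv (Equiv.arrowCongr τ.symm (Equiv.refl _)) _ _ fun σ => ?_).symm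
        congr 1
        funext j
        exact (SymmetricPower.tprod_equiv τ fun i => v i (σ i j)).symm)
    exact DFunLike.congr_fun this f
  exact ⟨symLift F hs, fun v => (symLift_tprod _ _ _).trans (hF v)⟩

variable {a b : ℕ}

lemma ev_Psi (Ψ : SymmetricPower ℂ (Fin a) (SymmetricPower ℂ (Fin b) V) →ₗ[ℂ]
        SymmetricPower ℂ (Fin b) (SymmetricPower ℂ (Fin a) V))
    (hΨ : ∀ v : Fin a → Fin b → V,
        Ψ (SymmetricPower.tprod ℂ fun i => SymmetricPower.tprod ℂ (v i))
          = ∑ σ : Fin a → Equiv.Perm (Fin b),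
            SymmetricPower.tprod ℂ fun j => SymmetricPower.tprod ℂ fun i => v i (σ i j))
    (u : Fin b → Module.Dual ℂ V) :
    (a.factorial : ℂ) • (BB b _ (fun k => BB a V fun _ => u k)).comp Ψ
      = ((a.factorial : ℂ) ^ b * b.factorial) • BB a _ (fun _ => BB b V u) := by
  refine sym_ext2 fun v => ?_
  simp only [LinearMap.smul_apply, LinearMap.comp_apply, hΨ, map_sum, smul_eq_mul]
  rw [BB_diag]
  simp only [BB_tprod (n := b), BB_diag]
  have h1 : ∀ τ : Equiv.Perm (Fin b), ∑ σ : Fin a → Equiv.Perm (Fin b),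
      ∏ k, ((a.factorial : ℂ) * ∏ i, u k (v i (σ i (τ k))))
      = (a.factorial : ℂ) ^ b * ∏ i, ∑ σ : Equiv.Perm (Fin b), ∏ k, u k (v i (σ k)) := by
    intro τ
    rw [Fintype.prod_sum, Finset.mul_sum]
    refine Fintype.sum_equiv (Equiv.mulRight (fun _ => τ)) _ _ fun σ => ?_
    rw [Finset.prod_mul_distrib, Finset.prod_comm]
    simp
  rw [Finset.sum_comm]
  simp only [h1, Finset.sum_const, Finset.card_univ, Fintype.card_perm, Fintype.card_fin,
    nsmul_eq_mul]
  ring

lemma Psi_inj [FiniteDimensional ℂ V] (hb : a ^ 2 ≤ b)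
    (Ψ : SymmetricPower ℂ (Fin (a + 1)) (SymmetricPower ℂ (Fin b) V) →ₗ[ℂ]
        SymmetricPower ℂ (Fin b) (SymmetricPower ℂ (Fin (a + 1)) V))
    (hΨ : ∀ v : Fin (a + 1) → Fin b → V,
        Ψ (SymmetricPower.tprod ℂ fun i => SymmetricPower.tprod ℂ (v i))
          = ∑ σ : Fin (a + 1) → Equiv.Perm (Fin b),
            SymmetricPower.tprod ℂ fun j => SymmetricPower.tprod ℂ fun i => v i (σ i j)) :
    Function.Injective Ψ := by
  rw [← LinearMap.ker_eq_bot, LinearMap.ker_eq_bot']
  intro φ hφ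
  obtain ⟨Θ, hΘ⟩ := LinearMap.exists_leftInverse_of_injective (iota b V) iota_inj
  have hΘ' : ∀ ξ, Θ (iota b V ξ) = ξ := fun ξ => DFunLike.congr_fun hΘ ξ
  let Q : MultilinearMap ℂ (fun _ : Fin (a + 1) => Module.Dual ℂ (SymmetricPower ℂ (Fin b) V)) ℂ :=
    (Module.Dual.eval ℂ _ φ).compMultilinearMap (BB (a + 1) _)
  have hQ : ∀ ξ, Q ξ = BB (a + 1) _ ξ φ := fun _ => rfl
  have hc := core (WW V) a b hb (Q.compLinearMap fun _ => Θ)
    (fun σ f => by
      simp only [MultilinearMap.compLinearMap_apply, hQ]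
      rw [BB_symm σ fun i => Θ (f i)])
    (fun g hg => by
      obtain ⟨u, rfl⟩ := (mem_WW_pow g).1 hg
      have hb0 : (b.factorial : ℂ) ≠ 0 := by exact_mod_cast b.factorial_ne_zero
      have ha0 : ((a + 1).factorial : ℂ) ≠ 0 := by exact_mod_cast (a + 1).factorial_ne_zero
      have h1 : Θ (fun v => ∏ i, u i v) = (b.factorial : ℂ)⁻¹ • BB b V u := by
        rw [← hΘ' (BB b V u), iota_BB, map_smul, smul_smul, inv_mul_cancel₀ hb0, one_smul]
      have h2 := DFunLike.congr_fun (ev_Psi Ψ hΨ u) φ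
      simp only [LinearMap.smul_apply, LinearMap.comp_apply, hφ, map_zero, smul_eq_mul,
        mul_zero] at h2
      have h3 : Q (fun _ => BB b V u) = 0 :=
        (mul_eq_zero.1 h2.symm).resolve_left (mul_ne_zero (pow_ne_zero _ ha0) hb0)
      rw [MultilinearMap.compLinearMap_apply]
      simp only [h1]
      rw [Q.map_smul_univ, h3, smul_zero])
  refine eq_zero_of_BB φ fun ξ => ?_
  have := hc (fun i => iota b V (ξ i)) fun i => iota_mem _
  simpa only [MultilinearMap.compLinearMap_apply, hΘ', hQ] using this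

lemma Psi_equiv (Ψ : SymmetricPower ℂ (Fin a) (SymmetricPower ℂ (Fin b) V) →ₗ[ℂ]
        SymmetricPower ℂ (Fin b) (SymmetricPower ℂ (Fin a) V))
    (hΨ : ∀ v : Fin a → Fin b → V,
        Ψ (SymmetricPower.tprod ℂ fun i => SymmetricPower.tprod ℂ (v i))
          = ∑ σ : Fin a → Equiv.Perm (Fin b),
            SymmetricPower.tprod ℂ fun j => SymmetricPower.tprod ℂ fun i => v i (σ i j))
    (g : V →ₗ[ℂ] V) :
    Ψ.comp (symMap a (symMap b g)) = (symMap b (symMap a g)).comp Ψ := by
  refine sym_ext2 fun v => ?_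
  simp only [LinearMap.comp_apply, symMap_tprod, hΨ, map_sum]

end Vale.Agent.P181
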